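import Vale.Agent.Lib.P170.Main

open Filter Topology

namespace Vale.Agent.Results.P170.A_slow_variation

open Vale.Agent.Lib.P170

/-- Stability of the random `k`-SAT satisfiability probability in the number of variables, and the
resulting slow variation of every Friedgut threshold sequence `r`. -/
theorem result (k : ℕ) (hk : 2 ≤ k) :
    (∀ n m : ℕ, k ≤ n →
      |satProb k (n + 1) m - satProb k n m| ≤
        1 / (2 * Real.sqrt (((n : ℝ) + 1) * (1 - (k : ℝ) / (n + 1)) ^ m))) ∧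
    ∀ r : ℕ → ℝ, IsThresholdSeq k r →
      (∀ C : ℝ, 0 ≤ C → ∀ ε : ℝ, 0 < ε → ∀ᶠ n : ℕ in atTop, ∀ t : ℕ,
        (t : ℝ) ≤ C * Real.sqrt n → |r (n + t) - r n| ≤ ε) ∧
      (∀ C : ℝ, 1 ≤ C → ∀ ε : ℝ, 0 < ε → ∀ᶠ n : ℕ in atTop, ∀ N : ℕ, n ≤ N → (N : ℝ) ≤ C * n →
        r N ≤ ((N : ℝ) / n) ^ (k - 1) * r n + ε) := by
  have hk1 : 1 ≤ k := by omega
  refine ⟨fun n m hkn => abs_diff_le hk1 hkn m, fun r hr => ⟨?_, ?_⟩⟩
  · intro C hC ε hε
    filter_upwards [no_drop hk1 hr hC hε, no_rise hk1 hr hC hε] with n h1 h2 t ht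
    rw [abs_le]
    constructor
    · linarith [h1 t ht]
    · linarith [h2 t ht]
  · intro C hC ε hε
    exact up_bound hk1 hr hC hε

end Vale.Agent.Results.P170.A_slow_variation
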