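import Vale.Agent.Lib.P170B.Plateau

open Filter Topology

namespace Vale.Agent.Results.P170.B_near_monotone

open Vale.Agent.Lib.P170 Vale.Agent.Lib.P170B

/-- Interpolation for the satisfiability probability of random `k`-SAT and the resulting near
monotonicity of every Friedgut threshold sequence `r`. -/
theorem result (k : ℕ) (hk : 2 ≤ k) :
    (∀ n₁ n₂ M : ℕ, ∀ q : ℝ, k ≤ n₁ → k ≤ n₂ → 0 ≤ q → q < 1 →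
      ∑ j ∈ Finset.range (M + 1), (M.choose j : ℝ) * ((n₁ : ℝ) / (n₁ + n₂ : ℕ)) ^ j *
          ((n₂ : ℝ) / (n₁ + n₂ : ℕ)) ^ (M - j) * (satProb k n₁ j * satProb k n₂ (M - j)) ≤
        ∑ j ∈ Finset.range (M + 1), (M.choose j : ℝ) * q ^ j * (1 - q) ^ (M - j) *
            satProb k (n₁ + n₂) j +
          M * (2 * (k : ℝ) ^ 2 / ((1 - q) * ((n₁ + n₂ : ℕ) : ℝ))) ^ k) ∧
    ∀ r : ℕ → ℝ, IsThresholdSeq k r →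
      (∀ ε : ℝ, 0 < ε → ∃ n₀ : ℕ, ∀ n₁ n₂ : ℕ, n₀ ≤ n₁ → n₀ ≤ n₂ →
        min (r n₁) (r n₂) - ε ≤ r (n₁ + n₂)) ∧
      (∀ m : ℕ, 1 ≤ m → ∀ ε : ℝ, 0 < ε → ∀ᶠ n : ℕ in atTop, r n - ε ≤ r (m * n)) ∧
      (∀ Q : ℕ, ∀ ε : ℝ, 0 < ε → ∀ᶠ n : ℕ in atTop, ∀ q : ℕ, 1 ≤ q → q ≤ Q → ∀ N : ℕ,
        n ≤ N → N ≤ q * n → ((N : ℝ) / (q * n)) ^ (k - 1) * r n - ε ≤ r N) ∧
      (∀ s s' C : ℝ, 0 ≤ s → s < s' → 1 ≤ C → (∃ᶠ n : ℕ in atTop, s' < r n) →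
        ∃ᶠ n : ℕ in atTop, ∀ N : ℕ, n ≤ N → (N : ℝ) ≤ C * n → s < r N) ∧
      (∀ s s' C : ℝ, 0 ≤ s → s < s' → 1 ≤ C → (∃ᶠ n : ℕ in atTop, r n < s) →
        ∃ᶠ M : ℕ in atTop, ∀ n : ℕ, M ≤ n → (n : ℝ) ≤ C * M → r n < s') := by
  have hk1 : 1 ≤ k := by omega
  refine ⟨fun n₁ n₂ M q h₁ h₂ hq0 hq1 => interpolation hk1 h₁ h₂ hq0 hq1 M, fun r hr => ?_⟩
  refine ⟨fun ε hε => additive hk hr hε, fun m hm ε hε => multiple_bound hk hr hm hε,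
    fun Q ε hε => scale_bound hk hr Q hε, fun s s' C hs hss hC hf => highs_persist hk hr hs hss hf hC,
    fun s s' C hs hss hC hf => lows_persist hk hr hs hss hf hC⟩

end Vale.Agent.Results.P170.B_near_monotone
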